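import Mathlib

/-!
# Brouwer's fixed point theorem

Milnor-Rogers volume argument with polynomial weights.  If `g` is `C¹` with compact support in a ball
`B`, then for small `t` the map `x + t g x` is a bijection of `B`, so for a polynomial weight `w`
`∫_B w (x + t g x) det (1 + t Dg x) dx = ∫_B w`.  The left side is a polynomial in `t`, so the identity
holds for all `t`, in particular for `t = 1`.  If `x + g x` does not vanish, then a weight
concentrated at the origin gives a contradiction.
-/

open MeasureTheory Set Polynomial Metric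

namespace BrouwerFP

variable {V : Type*} [NormedAddCommGroup V] [InnerProductSpace ℝ V] [FiniteDimensional ℝ V]

/-- `t ↦ det (1 + t A)` is a polynomial of degree at most `dim V` -/
theorem det_poly (A : V →L[ℝ] V) : ∃ p : ℝ[X], p.natDegree ≤ Module.finrank ℝ V ∧
    ∀ t : ℝ, p.eval t = (ContinuousLinearMap.id ℝ V + t • A).det := by
  classical
  let b := Module.finBasis ℝ V
  set M := LinearMap.toMatrix b b (A : V →ₗ[ℝ] V) with hM
  refine ⟨Matrix.det ((X : ℝ[X]) • M.map C + (1 : Matrix _ _ ℝ).map C), ?_, ?_⟩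
  · refine (natDegree_det_X_add_C_le M 1).trans ?_
    simp
  · intro t
    have h1 : (ContinuousLinearMap.id ℝ V + t • A).det = (1 + t • M).det := by
      have : (ContinuousLinearMap.id ℝ V + t • A).det =
          LinearMap.det (LinearMap.id + t • (A : V →ₗ[ℝ] V)) := rfl
      rw [this, ← LinearMap.det_toMatrix b, map_add, map_smul, LinearMap.toMatrix_id, hM]
    rw [h1]
    have h2 : Polynomial.eval t (Matrix.det ((X : ℝ[X]) • M.map C + (1 : Matrix _ _ ℝ).map C)) =
        (Matrix.map ((X : ℝ[X]) • M.map C + (1 : Matrix _ _ ℝ).map C)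
          (Polynomial.evalRingHom t)).det := by
      rw [← Polynomial.coe_evalRingHom, RingHom.map_det]
      rfl
    rw [h2]
    congr 1
    ext i j
    simp [Matrix.map_apply, Matrix.add_apply, Matrix.smul_apply, Matrix.one_apply]
    split_ifs <;> simp <;> ring

/-- the weight -/
noncomputable def wt (M : ℝ) (k : ℕ) (y : V) : ℝ := (1 - ‖y‖ ^ 2 / M ^ 2) ^ k

theorem wt_poly (M : ℝ) (k : ℕ) (x v : V) : ∃ p : ℝ[X], p.natDegree ≤ 2 * k ∧
    ∀ t : ℝ, p.eval t = wt M k (x + t • v) := by
  refine ⟨(C 1 - C (1 / M ^ 2) * (C (‖x‖ ^ 2) + C (2 * inner ℝ x v) * X + C (‖v‖ ^ 2) * X ^ 2)) ^ k,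
    ?_, ?_⟩
  · refine (natDegree_pow_le).trans ?_
    rw [mul_comm]
    refine Nat.mul_le_mul_right k ?_
    compute_degree
  · intro t
    simp only [eval_pow, eval_sub, eval_mul, eval_add, eval_C, eval_X, wt]
    congr 1
    have : ‖x + t • v‖ ^ 2 = ‖x‖ ^ 2 + 2 * inner ℝ x v * t + ‖v‖ ^ 2 * t ^ 2 := by
      rw [norm_add_sq_real, inner_smul_right, norm_smul, mul_pow, Real.norm_eq_abs, sq_abs]
      ring
    rw [this]
    ring

theorem PP_poly (M : ℝ) (k : ℕ) (x v : V) (A : V →L[ℝ] V) :
    ∃ p : ℝ[X], p.natDegree ≤ 2 * k + Module.finrank ℝ V ∧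
    ∀ t : ℝ, p.eval t = wt M k (x + t • v) * (ContinuousLinearMap.id ℝ V + t • A).det := by
  obtain ⟨p, hp, hp'⟩ := wt_poly M k x v
  obtain ⟨q, hq, hq'⟩ := det_poly A
  refine ⟨p * q, natDegree_mul_le.trans (Nat.add_le_add hp hq), fun t => ?_⟩
  rw [eval_mul, hp', hq']

/-- a small perturbation of the identity has positive determinant -/
theorem det_pos_of_small (A : V →L[ℝ] V) (t : ℝ) (ht : 0 ≤ t) (hA : t * ‖A‖ < 1) :
    0 < (ContinuousLinearMap.id ℝ V + t • A).det := by
  have hne : ∀ s ∈ Icc (0 : ℝ) t, (ContinuousLinearMap.id ℝ V + s • A).det ≠ 0 := by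
    intro s hs h0
    have h1 : LinearMap.det ((ContinuousLinearMap.id ℝ V + s • A : V →L[ℝ] V) : V →ₗ[ℝ] V) = 0 := h0
    have h2 := LinearMap.bot_lt_ker_of_det_eq_zero h1
    obtain ⟨x, hx, hx0⟩ := SetLike.exists_of_lt h2
    rw [Submodule.mem_bot] at hx0
    rw [LinearMap.mem_ker] at hx
    have h3 : x + s • A x = 0 := by simpa using hx
    have h4 : ‖x‖ = s * ‖A x‖ := by
      have : x = -(s • A x) := by
        rw [← add_eq_zero_iff_eq_neg]
        exact h3
      calc ‖x‖ = ‖-(s • A x)‖ := by rw [← this]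
        _ = s * ‖A x‖ := by rw [norm_neg, norm_smul, Real.norm_eq_abs, abs_of_nonneg hs.1]
    have h5 : ‖A x‖ ≤ ‖A‖ * ‖x‖ := A.le_opNorm x
    have h6 : 0 < ‖x‖ := norm_pos_iff.2 hx0
    have h7 : s * ‖A‖ < 1 := lt_of_le_of_lt (mul_le_mul_of_nonneg_right hs.2 (norm_nonneg A)) hA
    have h8 : s * ‖A x‖ ≤ s * (‖A‖ * ‖x‖) := mul_le_mul_of_nonneg_left h5 hs.1
    nlinarith
  have hc : ContinuousOn (fun s : ℝ => (ContinuousLinearMap.id ℝ V + s • A).det) (Icc 0 t) := by
    refine (ContinuousLinearMap.continuous_det.comp ?_).continuousOn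
    fun_prop
  by_contra hcon
  push Not at hcon
  have h0 : (ContinuousLinearMap.id ℝ V + (0 : ℝ) • A).det = 1 := by
    have : (ContinuousLinearMap.id ℝ V + (0 : ℝ) • A) = ContinuousLinearMap.id ℝ V := by simp
    rw [this]
    exact LinearMap.det_id
  have hm : (0 : ℝ) ∈ Icc ((fun s : ℝ => (ContinuousLinearMap.id ℝ V + s • A).det) t)
      ((fun s : ℝ => (ContinuousLinearMap.id ℝ V + s • A).det) 0) := by
    refine ⟨hcon, ?_⟩
    simp only [h0]
    exact zero_le_one
  obtain ⟨s, hs, hs'⟩ := intermediate_value_Icc' ht hc hm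
  exact hne s hs hs'

section perturb

variable {g : V → V} {R L : ℝ}

theorem inj_small (hL : ∀ x y, ‖g x - g y‖ ≤ L * ‖x - y‖) {t : ℝ} (ht : 0 ≤ t) (htL : t * L < 1) :
    Function.Injective (fun x => x + t • g x) := by
  intro x y hxy
  simp only at hxy
  by_contra hne
  have h1 : x - y = -(t • (g x - g y)) := by
    rw [smul_sub]
    have : x + t • g x - (y + t • g y) = 0 := sub_eq_zero.2 hxy
    rw [← sub_eq_zero]
    rw [← this]
    abel
  have h2 : ‖x - y‖ = t * ‖g x - g y‖ := by
    calc ‖x - y‖ = ‖-(t • (g x - g y))‖ := by rw [← h1]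
      _ = t * ‖g x - g y‖ := by rw [norm_neg, norm_smul, Real.norm_eq_abs, abs_of_nonneg ht]
  have h3 : 0 < ‖x - y‖ := norm_pos_iff.2 (sub_ne_zero.2 hne)
  have h4 := mul_le_mul_of_nonneg_left (hL x y) ht
  nlinarith

theorem surj_small (hL : ∀ x y, ‖g x - g y‖ ≤ L * ‖x - y‖) {t : ℝ} (ht : 0 ≤ t) (htL : t * L < 1)
    (hL0 : 0 ≤ L) : Function.Surjective (fun x => x + t • g x) := by
  intro y
  have hcoe : ((Real.toNNReal (t * L) : NNReal) : ℝ) = t * L :=
    Real.coe_toNNReal _ (mul_nonneg ht hL0)
  have hK : Real.toNNReal (t * L) < 1 := by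
    rw [← NNReal.coe_lt_coe, hcoe]
    exact htL
  have hc : ContractingWith (Real.toNNReal (t * L)) (fun x => y - t • g x) := by
    refine ⟨hK, LipschitzWith.of_dist_le_mul fun x z => ?_⟩
    rw [dist_eq_norm, dist_eq_norm, hcoe]
    have h1 : y - t • g x - (y - t • g z) = -(t • (g x - g z)) := by
      rw [smul_sub]
      abel
    rw [h1, norm_neg, norm_smul, Real.norm_eq_abs, abs_of_nonneg ht]
    have := mul_le_mul_of_nonneg_left (hL x z) ht
    calc t * ‖g x - g z‖ ≤ t * (L * ‖x - z‖) := this
      _ = t * L * ‖x - z‖ := by ring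
  refine ⟨ContractingWith.fixedPoint _ hc, ?_⟩
  have h2 := hc.fixedPoint_isFixedPt
  have h3 : y - t • g (ContractingWith.fixedPoint _ hc) = ContractingWith.fixedPoint _ hc := h2
  simp only
  nth_rewrite 1 [← h3]
  abel

theorem image_small (hL : ∀ x y, ‖g x - g y‖ ≤ L * ‖x - y‖) {t : ℝ} (ht : 0 ≤ t) (htL : t * L < 1)
    (hL0 : 0 ≤ L) (hg : ∀ x, x ∉ closedBall (0 : V) R → g x = 0) :
    (fun x => x + t • g x) '' closedBall (0 : V) R = closedBall (0 : V) R := by
  have hinj := inj_small hL ht htL
  have hsurj := surj_small hL ht htL hL0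
  apply Subset.antisymm
  · rintro y ⟨x, hx, rfl⟩
    by_contra hy
    have h1 : (fun x => x + t • g x) ((fun x => x + t • g x) x) = (fun x => x + t • g x) x := by
      simp only
      rw [hg _ hy]
      simp
    have h2 := hinj h1
    rw [h2] at hy
    exact hy hx
  · intro y hy
    obtain ⟨x, hx⟩ := hsurj y
    refine ⟨x, ?_, hx⟩
    by_contra hx'
    simp only at hx
    rw [hg x hx'] at hx
    simp only [smul_zero, add_zero] at hx
    rw [hx] at hx'
    exact hx' hy

variable [MeasurableSpace V] [BorelSpace V]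

theorem volume_small (hgc : ContDiff ℝ 1 g) (hg : ∀ x, x ∉ closedBall (0 : V) R → g x = 0)
    (hLf : ∀ x, ‖fderiv ℝ g x‖ ≤ L) (hL0 : 0 ≤ L) {t : ℝ} (ht : 0 ≤ t) (htL : t * L < 1)
    (w : V → ℝ) :
    ∫ x in closedBall (0 : V) R, w (x + t • g x) *
      (ContinuousLinearMap.id ℝ V + t • fderiv ℝ g x).det =
      ∫ x in closedBall (0 : V) R, w x := by
  have hd : Differentiable ℝ g := hgc.differentiable (by norm_num)
  have hL : ∀ x y, ‖g x - g y‖ ≤ L * ‖x - y‖ := fun x y =>
    convex_univ.norm_image_sub_le_of_norm_fderiv_le (fun z _ => hd z) (fun z _ => hLf z)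
      (mem_univ y) (mem_univ x)
  have h1 := integral_image_eq_integral_abs_det_fderiv_smul (volume : Measure V)
    (s := closedBall (0 : V) R) (f := fun x => x + t • g x)
    (f' := fun x => ContinuousLinearMap.id ℝ V + t • fderiv ℝ g x) measurableSet_closedBall
    (fun x _ => ((hasFDerivAt_id x).add ((hd x).hasFDerivAt.const_smul t)).hasFDerivWithinAt)
    ((inj_small hL ht htL).injOn) w
  rw [image_small hL ht htL hL0 hg] at h1
  rw [h1]
  refine setIntegral_congr_fun measurableSet_closedBall fun x _ => ?_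
  have hpos : 0 < (ContinuousLinearMap.id ℝ V + t • fderiv ℝ g x).det := by
    refine det_pos_of_small _ t ht (lt_of_le_of_lt ?_ htL)
    exact mul_le_mul_of_nonneg_left (hLf x) ht
  simp only [smul_eq_mul]
  rw [abs_of_pos hpos, mul_comm]

theorem continuous_PP (hgc : ContDiff ℝ 1 g) (M : ℝ) (k : ℕ) (t : ℝ) :
    Continuous fun x => wt M k (x + t • g x) *
      (ContinuousLinearMap.id ℝ V + t • fderiv ℝ g x).det := by
  have h1 : Continuous g := hgc.continuous
  have h2 : Continuous (fderiv ℝ g) := hgc.continuous_fderiv (by norm_num)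
  refine Continuous.mul ?_ ?_
  · unfold wt
    fun_prop
  · exact ContinuousLinearMap.continuous_det.comp (by fun_prop)

/-- the volume identity for all `t` -/
theorem volume_all (hgc : ContDiff ℝ 1 g) (hg : ∀ x, x ∉ closedBall (0 : V) R → g x = 0)
    (hLf : ∀ x, ‖fderiv ℝ g x‖ ≤ L) (hL0 : 0 ≤ L) (M : ℝ) (k : ℕ) (t : ℝ) :
    ∫ x in closedBall (0 : V) R, wt M k (x + t • g x) *
      (ContinuousLinearMap.id ℝ V + t • fderiv ℝ g x).det =
      ∫ x in closedBall (0 : V) R, wt M k x := by
  classical
  set D := 2 * k + Module.finrank ℝ V with hD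
  set δ : ℝ := 1 / ((L + 1) * (D + 1)) with hδ
  have hδ0 : 0 < δ := by positivity
  let v : ℕ → ℝ := fun j => j * δ
  let s : Finset ℕ := Finset.range (D + 1)
  have hvs : Set.InjOn v s := by
    intro i _ j _ hij
    have : (i : ℝ) = j := mul_right_cancel₀ hδ0.ne' hij
    exact_mod_cast this
  have hv0 : ∀ j, 0 ≤ v j := fun j => by positivity
  have hvL : ∀ j ∈ s, v j * L < 1 := by
    intro j hj
    have hj' : (j : ℝ) ≤ D := by
      have := Finset.mem_range.1 hj
      exact_mod_cast Nat.lt_succ_iff.1 this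
    have h1 : v j * L = (j : ℝ) * L / ((L + 1) * (D + 1)) := by
      simp only [v, hδ]
      ring
    rw [h1, div_lt_one (by positivity)]
    nlinarith [hj', hL0, mul_nonneg (Nat.cast_nonneg (α := ℝ) D) hL0]
  have key : ∀ x, wt M k (x + t • g x) * (ContinuousLinearMap.id ℝ V + t • fderiv ℝ g x).det =
      ∑ j ∈ s, (wt M k (x + v j • g x) *
        (ContinuousLinearMap.id ℝ V + v j • fderiv ℝ g x).det) *
        (Lagrange.basis s v j).eval t := by
    intro x
    obtain ⟨p, hp, hp'⟩ := PP_poly M k x (g x) (fderiv ℝ g x)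
    have hdeg : p.degree < (s.card : WithBot ℕ) := by
      refine lt_of_le_of_lt degree_le_natDegree ?_
      have : p.natDegree < s.card := by
        simp only [s, Finset.card_range]
        omega
      exact_mod_cast this
    have h1 := Lagrange.eq_interpolate hvs hdeg
    have h2 : p.eval t = ∑ j ∈ s, p.eval (v j) * (Lagrange.basis s v j).eval t := by
      conv_lhs => rw [h1]
      rw [Lagrange.interpolate_apply, eval_finsetSum]
      refine Finset.sum_congr rfl fun j _ => ?_
      rw [eval_mul, eval_C]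
    rw [← hp', h2]
    refine Finset.sum_congr rfl fun j _ => ?_
    rw [hp']
  simp only [key]
  rw [integral_finsetSum]
  · have h3 : ∀ j ∈ s, ∫ x in closedBall (0 : V) R, (wt M k (x + v j • g x) *
        (ContinuousLinearMap.id ℝ V + v j • fderiv ℝ g x).det) *
        (Lagrange.basis s v j).eval t =
        (∫ x in closedBall (0 : V) R, wt M k x) * (Lagrange.basis s v j).eval t := by
      intro j hj
      rw [integral_mul_const, volume_small hgc hg hLf hL0 (hv0 j) (hvL j hj)]
    rw [Finset.sum_congr rfl h3, ← Finset.mul_sum]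
    have h4 : ∑ j ∈ s, (Lagrange.basis s v j).eval t = 1 := by
      rw [← eval_finsetSum, Lagrange.sum_basis hvs ⟨0, Finset.mem_range.2 (Nat.succ_pos _)⟩,
        eval_one]
    rw [h4, mul_one]
  · intro j _
    exact (((continuous_PP hgc M k (v j)).mul continuous_const).continuousOn).integrableOn_compact
      (isCompact_closedBall _ _)

end perturb

/-- `x + g x` has a zero, `C¹` case -/
theorem zero_C1 {g : V → V} (hgc : ContDiff ℝ 1 g) (hs : HasCompactSupport g) :
    ∃ x, x + g x = 0 := by
  let _ : MeasurableSpace V := borel V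
  have _ : BorelSpace V := ⟨rfl⟩
  by_contra hcon
  push Not at hcon
  -- the ball
  obtain ⟨R0, hR0⟩ := hs.isCompact.isBounded.subset_closedBall (0 : V)
  set R := max R0 1 with hR
  have hR1 : 1 ≤ R := le_max_right _ _
  have hg : ∀ x, x ∉ closedBall (0 : V) R → g x = 0 := by
    intro x hx
    by_contra h
    have h1 : x ∈ tsupport g := subset_tsupport g (Function.mem_support.2 h)
    have h2 := hR0 h1
    exact hx (closedBall_subset_closedBall (le_max_left _ _) h2)
  have hcf : Continuous (fderiv ℝ g) := hgc.continuous_fderiv (by norm_num)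
  obtain ⟨L, hL⟩ := (hs.fderiv ℝ).exists_bound_of_continuous hcf
  have hL0 : 0 ≤ L := (norm_nonneg _).trans (hL 0)
  have hFc : Continuous fun x => x + g x := continuous_id.add hgc.continuous
  have hBc : IsCompact (closedBall (0 : V) R) := isCompact_closedBall _ _
  have hBne : (closedBall (0 : V) R).Nonempty := ⟨0, mem_closedBall_self (by linarith)⟩
  obtain ⟨x0, hx0, hmin⟩ := hBc.exists_isMinOn hBne (hFc.norm.continuousOn)
  set c := ‖x0 + g x0‖ with hc
  have hc0 : 0 < c := norm_pos_iff.2 (hcon x0)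
  have hcle : ∀ x ∈ closedBall (0 : V) R, c ≤ ‖x + g x‖ := fun x hx => hmin hx
  obtain ⟨x1, hx1, hmax⟩ := hBc.exists_isMaxOn hBne (hFc.norm.continuousOn)
  set M := max R (‖x1 + g x1‖) with hM
  have hM0 : 0 < M := lt_of_lt_of_le (by linarith) (le_max_left _ _)
  have hMle : ∀ x ∈ closedBall (0 : V) R, ‖x + g x‖ ≤ M := fun x hx =>
    (hmax hx).trans (le_max_right _ _)
  have hRM : R ≤ M := le_max_left _ _
  set q : ℝ := 1 - c ^ 2 / M ^ 2 with hq
  set r : ℝ := min (c / 2) R with hr
  have hr0 : 0 < r := lt_min (by linarith) (by linarith)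
  have hrc : r < c := lt_of_le_of_lt (min_le_left _ _) (by linarith)
  have hrR : r ≤ R := min_le_right _ _
  set q' : ℝ := 1 - r ^ 2 / M ^ 2 with hq'
  have hcM : c ≤ M := (hcle 0 (mem_closedBall_self (by linarith))).trans
    (hMle 0 (mem_closedBall_self (by linarith)))
  have hq0 : 0 ≤ q := by
    rw [hq, sub_nonneg, div_le_one (by positivity)]
    exact pow_le_pow_left₀ hc0.le hcM 2
  have hqq' : q < q' := by
    rw [hq, hq']
    have : r ^ 2 / M ^ 2 < c ^ 2 / M ^ 2 := by
      apply div_lt_div_of_pos_right _ (by positivity)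
      exact pow_lt_pow_left₀ hrc hr0.le (by norm_num)
    linarith
  have hq'0 : 0 < q' := lt_of_le_of_lt hq0 hqq'
  set C0 : ℝ := ∫ x in closedBall (0 : V) R,
    |(ContinuousLinearMap.id ℝ V + (1 : ℝ) • fderiv ℝ g x).det| with hC0
  have hdc : Continuous fun x => (ContinuousLinearMap.id ℝ V + (1 : ℝ) • fderiv ℝ g x).det :=
    ContinuousLinearMap.continuous_det.comp (by fun_prop)
  set v0 : ℝ := volume.real (closedBall (0 : V) r) with hv0
  have hv0pos : 0 < v0 := by
    rw [hv0, Measure.real]
    exact ENNReal.toReal_pos (measure_closedBall_pos volume _ hr0).ne'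
      (isCompact_closedBall _ _).measure_lt_top.ne
  have main : ∀ k : ℕ, q' ^ k * v0 ≤ q ^ k * C0 := by
    intro k
    have h1 := volume_all hgc hg hL hL0 M k 1
    have hwc : Continuous (wt (V := V) M k) := by
      unfold wt
      fun_prop
    have hw0 : ∀ x ∈ closedBall (0 : V) R, 0 ≤ wt M k x := by
      intro x hx
      rw [mem_closedBall_zero_iff] at hx
      refine pow_nonneg ?_ _
      rw [sub_nonneg, div_le_one (by positivity)]
      exact pow_le_pow_left₀ (norm_nonneg _) (hx.trans hRM) 2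
    -- lower bound
    have h2 : q' ^ k * v0 ≤ ∫ x in closedBall (0 : V) R, wt M k x := by
      have h3 : ∫ x in closedBall (0 : V) r, wt M k x ≤ ∫ x in closedBall (0 : V) R, wt M k x := by
        refine setIntegral_mono_set (hwc.continuousOn.integrableOn_compact hBc) ?_ ?_
        · filter_upwards [ae_restrict_mem measurableSet_closedBall] with x hx
          exact hw0 x hx
        · exact (closedBall_subset_closedBall hrR).eventuallyLE
      refine le_trans ?_ h3
      have h4 : ∫ x in closedBall (0 : V) r, (q' ^ k) ≤ ∫ x in closedBall (0 : V) r, wt M k x := by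
        refine setIntegral_mono_on (integrableOn_const
          (isCompact_closedBall _ _).measure_lt_top.ne)
          (hwc.continuousOn.integrableOn_compact (isCompact_closedBall _ _))
          measurableSet_closedBall ?_
        intro x hx
        rw [mem_closedBall_zero_iff] at hx
        refine pow_le_pow_left₀ hq'0.le ?_ _
        rw [hq']
        have : ‖x‖ ^ 2 / M ^ 2 ≤ r ^ 2 / M ^ 2 := by
          apply div_le_div_of_nonneg_right _ (by positivity)
          exact pow_le_pow_left₀ (norm_nonneg _) hx 2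
        linarith
      rw [setIntegral_const, smul_eq_mul] at h4
      rw [mul_comm]
      exact h4
    -- upper bound
    have h5 : ∫ x in closedBall (0 : V) R, wt M k (x + (1 : ℝ) • g x) *
        (ContinuousLinearMap.id ℝ V + (1 : ℝ) • fderiv ℝ g x).det ≤ q ^ k * C0 := by
      rw [hC0, ← integral_const_mul]
      refine setIntegral_mono_on
        ((continuous_PP hgc M k 1).continuousOn.integrableOn_compact hBc)
        ((continuous_const.mul hdc.abs).continuousOn.integrableOn_compact hBc)
        measurableSet_closedBall ?_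
      intro x hx
      have h6 := hcle x hx
      have h7 := hMle x hx
      rw [one_smul]
      have h8 : 0 ≤ 1 - ‖x + g x‖ ^ 2 / M ^ 2 := by
        rw [sub_nonneg, div_le_one (by positivity)]
        exact pow_le_pow_left₀ (norm_nonneg _) h7 2
      have h9 : 1 - ‖x + g x‖ ^ 2 / M ^ 2 ≤ q := by
        rw [hq]
        have : c ^ 2 / M ^ 2 ≤ ‖x + g x‖ ^ 2 / M ^ 2 := by
          apply div_le_div_of_nonneg_right _ (by positivity)
          exact pow_le_pow_left₀ hc0.le h6 2
        linarith
      have h10 : wt M k (x + g x) ≤ q ^ k := pow_le_pow_left₀ h8 h9 k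
      have h11 : 0 ≤ wt M k (x + g x) := pow_nonneg h8 k
      calc wt M k (x + g x) * (ContinuousLinearMap.id ℝ V + (1 : ℝ) • fderiv ℝ g x).det
          ≤ wt M k (x + g x) * |(ContinuousLinearMap.id ℝ V + (1 : ℝ) • fderiv ℝ g x).det| :=
            mul_le_mul_of_nonneg_left (le_abs_self _) h11
        _ ≤ _ := mul_le_mul_of_nonneg_right h10 (abs_nonneg _)
    linarith
  -- conclusion
  have hlim : Filter.Tendsto (fun k : ℕ => (q / q') ^ k * C0) Filter.atTop (nhds (0 * C0)) := by
    refine Filter.Tendsto.mul_const C0 ?_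
    refine tendsto_pow_atTop_nhds_zero_of_lt_one (by positivity) ?_
    rw [div_lt_one hq'0]
    exact hqq'
  rw [zero_mul] at hlim
  have hle : ∀ k : ℕ, v0 ≤ (q / q') ^ k * C0 := by
    intro k
    have h1 := main k
    rw [div_pow, div_mul_eq_mul_div, le_div_iff₀ (pow_pos hq'0 k)]
    linarith
  have := ge_of_tendsto' hlim hle
  linarith

/-- `x + g x` has a zero, continuous case -/
theorem zero_cont {g : V → V} (hgc : Continuous g) (hs : HasCompactSupport g) :
    ∃ x, x + g x = 0 := by
  by_contra hcon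
  push Not at hcon
  obtain ⟨R0, hR0⟩ := hs.isCompact.isBounded.subset_closedBall (0 : V)
  set R := max R0 1 with hR
  have hR1 : 1 ≤ R := le_max_right _ _
  have hg : ∀ x, x ∉ closedBall (0 : V) R → g x = 0 := by
    intro x hx
    by_contra h
    have h1 : x ∈ tsupport g := subset_tsupport g (Function.mem_support.2 h)
    have h2 := hR0 h1
    exact hx (closedBall_subset_closedBall (le_max_left _ _) h2)
  have hFc : Continuous fun x => x + g x := continuous_id.add hgc
  have hBc : IsCompact (closedBall (0 : V) R) := isCompact_closedBall _ _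
  have hBne : (closedBall (0 : V) R).Nonempty := ⟨0, mem_closedBall_self (by linarith)⟩
  obtain ⟨x0, hx0, hmin⟩ := hBc.exists_isMinOn hBne (hFc.norm.continuousOn)
  set c := min ‖x0 + g x0‖ 1 with hc
  have hc0 : 0 < c := lt_min (norm_pos_iff.2 (hcon x0)) one_pos
  have hcle : ∀ x, c ≤ ‖x + g x‖ := by
    intro x
    by_cases hx : x ∈ closedBall (0 : V) R
    · exact (min_le_left _ _).trans (hmin hx)
    · rw [hg x hx, add_zero]
      rw [mem_closedBall_zero_iff, not_le] at hx
      exact (min_le_right _ _).trans (by linarith)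
  obtain ⟨h, hh1, hh2, hh3⟩ := hgc.exists_contDiff_approx ⊤ (ε := fun _ => c)
    continuous_const (fun _ => hc0)
  have hh4 : HasCompactSupport h := hs.mono hh3
  obtain ⟨x, hx⟩ := zero_C1 (hh1.of_le (by norm_num)) hh4
  have h1 := hh2 x
  rw [dist_eq_norm] at h1
  have h2 : h x - g x = -(x + g x) := by
    have : h x = -x := by
      rw [← add_eq_zero_iff_eq_neg, add_comm]
      exact hx
    rw [this]
    abel
  rw [h2, norm_neg] at h1
  exact absurd h1 (not_lt.2 (hcle x))

/-- a bounded continuous map of `V` has a fixed point -/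
theorem fixed_of_bounded {h : V → V} (hc : Continuous h) {R : ℝ} (hR : ∀ x, ‖h x‖ ≤ R) :
    ∃ x, h x = x := by
  have hR0 : 0 ≤ R := (norm_nonneg _).trans (hR 0)
  set χ : V → ℝ := fun x => max 0 (min 1 (R + 1 - ‖x‖)) with hχ
  have hχc : Continuous χ := by fun_prop
  have hχ0 : ∀ x, 0 ≤ χ x := fun x => le_max_left _ _
  have hχ1 : ∀ x, χ x ≤ 1 := fun x => max_le zero_le_one (min_le_left _ _)
  set g : V → V := fun x => -(χ x • h x) with hg
  have hgc : Continuous g := (hχc.smul hc).neg
  have hgs : HasCompactSupport g := by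
    refine HasCompactSupport.intro (isCompact_closedBall (0 : V) (R + 1)) ?_
    intro x hx
    rw [mem_closedBall_zero_iff, not_le] at hx
    have : χ x = 0 := by
      simp only [hχ]
      rw [max_eq_left]
      exact (min_le_right _ _).trans (by linarith)
    simp only [hg, this, zero_smul, neg_zero]
  obtain ⟨x, hx⟩ := zero_cont hgc hgs
  have h1 : x = χ x • h x := by
    simp only [hg] at hx
    rw [← sub_eq_add_neg, sub_eq_zero] at hx
    exact hx
  have h2 : ‖x‖ ≤ R := by
    rw [h1, norm_smul, Real.norm_eq_abs, abs_of_nonneg (hχ0 x)]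
    calc χ x * ‖h x‖ ≤ 1 * R := mul_le_mul (hχ1 x) (hR x) (norm_nonneg _) zero_le_one
      _ = R := one_mul R
  have h3 : χ x = 1 := by
    simp only [hχ]
    rw [min_eq_left (by linarith), max_eq_right zero_le_one]
  refine ⟨x, ?_⟩
  conv_rhs => rw [h1, h3, one_smul]

/-- the metric projection onto a compact convex set -/
theorem exists_proj {K : Set V} (hK : IsCompact K) (hKc : Convex ℝ K) (hne : K.Nonempty) :
    ∃ P : V → V, Continuous P ∧ (∀ u, P u ∈ K) ∧
      (∀ u, ∀ w ∈ K, inner ℝ (u - P u) (w - P u) ≤ 0) ∧ ∀ u ∈ K, P u = u := by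
  classical
  choose P hPK hP using exists_norm_eq_iInf_of_complete_convex hne hK.isComplete hKc
  have hchar : ∀ u : V, ∀ w ∈ K, inner ℝ (u - P u) (w - P u) ≤ 0 := fun u =>
    (norm_eq_iInf_iff_real_inner_le_zero hKc (hPK u)).1 (hP u)
  have hPlip : ∀ u v : V, ‖P u - P v‖ ≤ ‖u - v‖ := by
    intro u v
    have h1 := hchar u (P v) (hPK v)
    have h2 := hchar v (P u) (hPK u)
    have h3 : ‖P u - P v‖ ^ 2 ≤ inner ℝ (u - v) (P u - P v) := by
      rw [← real_inner_self_eq_norm_sq]
      have e1 : inner ℝ (u - P u) (P v - P u) = -inner ℝ (u - P u) (P u - P v) := by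
        rw [← inner_neg_right, neg_sub]
      have e2 : inner ℝ (u - v) (P u - P v) - inner ℝ (P u - P v) (P u - P v) =
          inner ℝ (u - P u) (P u - P v) - inner ℝ (v - P v) (P u - P v) := by
        rw [← inner_sub_left, ← inner_sub_left]
        congr 1
        abel
      linarith
    have h4 : inner ℝ (u - v) (P u - P v) ≤ ‖u - v‖ * ‖P u - P v‖ := real_inner_le_norm _ _
    by_cases h0 : ‖P u - P v‖ = 0
    · rw [h0]
      exact norm_nonneg _
    · have h5 : 0 < ‖P u - P v‖ := lt_of_le_of_ne (norm_nonneg _) (Ne.symm h0)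
      nlinarith
  have hPc : Continuous P := by
    have : LipschitzWith 1 P := LipschitzWith.of_dist_le_mul fun u v => by
      rw [dist_eq_norm, dist_eq_norm, NNReal.coe_one, one_mul]
      exact hPlip u v
    exact this.continuous
  have hPfix : ∀ u ∈ K, P u = u := by
    intro u hu
    have h1 := hchar u u hu
    rw [real_inner_self_eq_norm_sq] at h1
    have h2 : ‖u - P u‖ = 0 := by
      have := sq_nonneg ‖u - P u‖
      have h3 : ‖u - P u‖ ^ 2 = 0 := le_antisymm h1 this
      exact pow_eq_zero_iff (two_ne_zero) |>.1 h3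
    rw [norm_eq_zero, sub_eq_zero] at h2
    exact h2.symm
  exact ⟨P, hPc, hPK, hchar, hPfix⟩

/-- Brouwer's fixed point theorem in an inner product space -/
theorem brouwer_inner {K : Set V} (hK : IsCompact K) (hKc : Convex ℝ K) (hne : K.Nonempty)
    {f : V → V} (hf : ContinuousOn f K) (hm : MapsTo f K K) : ∃ x ∈ K, f x = x := by
  obtain ⟨P, hPc, hPK, hchar, hPfix⟩ := exists_proj hK hKc hne
  have hh : Continuous fun x => f (P x) := by
    rw [← continuousOn_univ]
    exact hf.comp hPc.continuousOn (fun x _ => hPK x)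
  obtain ⟨R, hR⟩ := hK.isBounded.subset_closedBall (0 : V)
  obtain ⟨x, hx⟩ := fixed_of_bounded hh (R := R) (fun x => by
    have := hR (hm (hPK x))
    rwa [mem_closedBall_zero_iff] at this)
  have hxK : x ∈ K := by
    rw [← hx]
    exact hm (hPK x)
  refine ⟨x, hxK, ?_⟩
  simp only [hPfix x hxK] at hx
  exact hx

/-- Variational inequality (Hartman-Stampacchia): a continuous vector field on a compact convex
set has a point where it points weakly inwards -/
theorem variational {K : Set V} (hK : IsCompact K) (hKc : Convex ℝ K) (hne : K.Nonempty)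
    {F : V → V} (hF : ContinuousOn F K) : ∃ e ∈ K, ∀ e' ∈ K, 0 ≤ inner ℝ (F e) (e' - e) := by
  obtain ⟨P, hPc, hPK, hchar, hPfix⟩ := exists_proj hK hKc hne
  obtain ⟨e, he, he'⟩ := brouwer_inner hK hKc hne (f := fun x => P (x - F x))
    (hPc.comp_continuousOn (continuousOn_id.sub hF)) (fun x _ => hPK _)
  refine ⟨e, he, fun e' hE => ?_⟩
  have h1 := hchar (e - F e) e' hE
  rw [he', sub_sub_cancel_left, inner_neg_left] at h1
  linarith

/-- **Brouwer's fixed point theorem** -/
theorem brouwer {W : Type*} [NormedAddCommGroup W] [NormedSpace ℝ W] [FiniteDimensional ℝ W]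
    {K : Set W} (hK : IsCompact K) (hKc : Convex ℝ K) (hne : K.Nonempty)
    {f : W → W} (hf : ContinuousOn f K) (hm : MapsTo f K K) : ∃ x ∈ K, f x = x := by
  let e : W ≃L[ℝ] EuclideanSpace ℝ (Fin (Module.finrank ℝ W)) := toEuclidean
  have h1 : IsCompact (e '' K) := hK.image e.continuous
  have h2 : Convex ℝ (e '' K) := hKc.is_linear_image ⟨map_add e, map_smul e⟩
  have h3 : (e '' K).Nonempty := hne.image e
  obtain ⟨y, hy, hy'⟩ := brouwer_inner h1 h2 h3 (f := fun y => e (f (e.symm y))) (by
    refine e.continuous.comp_continuousOn ?_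
    refine hf.comp e.symm.continuous.continuousOn ?_
    rintro _ ⟨x, hx, rfl⟩
    rw [e.symm_apply_apply]
    exact hx) (by
    rintro _ ⟨x, hx, rfl⟩
    simp only [e.symm_apply_apply]
    exact ⟨f x, hm hx, rfl⟩)
  obtain ⟨x, hx, rfl⟩ := hy
  refine ⟨x, hx, ?_⟩
  simp only [e.symm_apply_apply] at hy'
  exact e.injective hy'

end BrouwerFP
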